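import Vale.Agent.Lib.P063.Statement
import Vale.Agent.Lib.P063.Deriv

/-!
# P063: the Friedgut-Kalai threshold-width conjecture
-/

namespace Vale.Agent.Results.P063.ThresholdWidth

open Vale.Agent.P063

/-- Both questions: for fixed `ε`, every nontrivial increasing graph property on `n` vertices has
threshold width at most `C / (log n)^2`, and every nontrivial increasing `r`-uniform hypergraph
property has threshold width at most `C / (log n)^(r/(r-1))`. -/
theorem result :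
    (∀ ε : ℝ, 0 < ε → ε < 1 / 2 → ∃ C : ℝ, 0 < C ∧ ∀ n : ℕ, 2 ≤ n →
      ∀ P : Set (Finset (Hyperedge n 2)),
        IsInvariant P → IsIncreasing P → P.Nonempty → P ≠ Set.univ →
        thr P (1 - ε) - thr P ε ≤ C / Real.log n ^ 2) ∧
    (∀ r : ℕ, 3 ≤ r → ∀ ε : ℝ, 0 < ε → ε < 1 / 2 → ∃ C : ℝ, 0 < C ∧ ∀ n : ℕ, r ≤ n →
      ∀ P : Set (Finset (Hyperedge n r)),
        IsInvariant P → IsIncreasing P → P.Nonempty → P ≠ Set.univ →
        thr P (1 - ε) - thr P ε ≤ C / Real.log n ^ ((r : ℝ) / ((r : ℝ) - 1))) := by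
  constructor
  · intro ε hε hε2
    obtain ⟨C, hC, h⟩ := width_main 2 le_rfl ε hε hε2
    refine ⟨C, hC, fun n hn P h1 h2 h3 h4 => (h n hn P h1 h2 h3 h4).trans (le_of_eq ?_)⟩
    have e1 : (((2 : ℕ) : ℝ) / (((2 : ℕ) : ℝ) - 1)) = ((2 : ℕ) : ℝ) := by norm_num
    rw [e1, Real.rpow_natCast]
  · intro r hr ε hε hε2
    obtain ⟨C, hC, h⟩ := width_main r (by omega) ε hε hε2
    exact ⟨C, hC, fun n hn P h1 h2 h3 h4 => h n hn P h1 h2 h3 h4⟩

end Vale.Agent.Results.P063.ThresholdWidth
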